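import Mathlib.Data.ZMod.Basic
import Mathlib.Algebra.BigOperators.Ring.Finset
import Mathlib.Data.Finset.Powerset
import Mathlib.Algebra.CharP.Two
import Mathlib.Algebra.Group.Nat.Even
import Mathlib.Tactic.Ring
import Mathlib.Tactic.LinearCombination

/-!
# P263: Steenrod's cup-i products on the full ordered simplex

`Co` : functions on the finite sets of natural numbers (total cochains of the simplex with
vertex set `ℕ`). `cupJ j f g` is the product `f ∪_{j-1} g`: the sum over the `j`-element sets
`J` of break points. `dd_cupJ` : the coboundary formula.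
-/

open Finset

namespace Vale.Agent.P263.H83

/-- total cochains on the full simplex with vertex set `ℕ` -/
abbrev Co := Finset ℕ → ZMod 2

/-- the coboundary -/
def dd (f : Co) : Co := fun S => ∑ k ∈ S, f (S.erase k)

/-- the parity of the number of break points below `v`, switched from `m` on -/
def par (J : Finset ℕ) (m v : ℕ) : Prop := Even ((J.filter (· < v)).card + if m ≤ v then 1 else 0)

instance (J : Finset ℕ) (m : ℕ) : DecidablePred (par J m) := fun _ => inferInstanceAs
  (Decidable (Even _))

/-- the first block, switched from `m` on -/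
def bA (S J : Finset ℕ) (m : ℕ) : Finset ℕ := S.filter fun v => v ∈ J ∨ par J m v

/-- the second block, switched from `m` on -/
def bB (S J : Finset ℕ) (m : ℕ) : Finset ℕ := S.filter fun v => v ∈ J ∨ ¬ par J m v

/-- the parity of the number of break points below `v` -/
def ev (J : Finset ℕ) (v : ℕ) : Prop := Even (J.filter (· < v)).card

instance (J : Finset ℕ) : DecidablePred (ev J) := fun _ => inferInstanceAs (Decidable (Even _))

/-- the first block -/
def fA (S J : Finset ℕ) : Finset ℕ := S.filter fun v => v ∈ J ∨ ev J v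

/-- the second block -/
def fB (S J : Finset ℕ) : Finset ℕ := S.filter fun v => v ∈ J ∨ ¬ ev J v

/-- the product `f ∪_{j-1} g` -/
def cupJ (j : ℕ) (f g : Co) : Co := fun S => ∑ J ∈ S.powersetCard j, f (fA S J) * g (fB S J)

theorem mem_bA {S J : Finset ℕ} {m v : ℕ} : v ∈ bA S J m ↔ v ∈ S ∧ (v ∈ J ∨ par J m v) := mem_filter

theorem mem_bB {S J : Finset ℕ} {m v : ℕ} : v ∈ bB S J m ↔ v ∈ S ∧ (v ∈ J ∨ ¬ par J m v) :=
  mem_filter

theorem mem_fA {S J : Finset ℕ} {v : ℕ} : v ∈ fA S J ↔ v ∈ S ∧ (v ∈ J ∨ ev J v) := mem_filter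

theorem mem_fB {S J : Finset ℕ} {v : ℕ} : v ∈ fB S J ↔ v ∈ S ∧ (v ∈ J ∨ ¬ ev J v) := mem_filter

theorem fA_erase (S J : Finset ℕ) (k : ℕ) : fA (S.erase k) J = (fA S J).erase k := by
  ext v; simp only [mem_fA, mem_erase]; tauto

theorem fB_erase (S J : Finset ℕ) (k : ℕ) : fB (S.erase k) J = (fB S J).erase k := by
  ext v; simp only [mem_fB, mem_erase]; tauto

theorem par_zero {J : Finset ℕ} {v : ℕ} : par J 0 v ↔ ¬ ev J v := by
  simp only [par, ev, Nat.zero_le, if_true, Nat.even_add_one]

theorem par_of_lt {J : Finset ℕ} {m v : ℕ} (h : v < m) : par J m v ↔ ev J v := by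
  rw [par, ev, if_neg (not_le.2 h), add_zero]

theorem bA_zero (S J : Finset ℕ) : bA S J 0 = fB S J := by
  ext v; rw [mem_bA, mem_fB, par_zero]

theorem bB_zero (S J : Finset ℕ) : bB S J 0 = fA S J := by
  ext v; rw [mem_bB, mem_fA, par_zero, not_not]

theorem bA_top {S J : Finset ℕ} {N : ℕ} (h : ∀ v ∈ S, v < N) : bA S J N = fA S J := by
  ext v; rw [mem_bA, mem_fA]
  refine and_congr_right fun hv => ?_
  rw [par_of_lt (h v hv)]

theorem bB_top {S J : Finset ℕ} {N : ℕ} (h : ∀ v ∈ S, v < N) : bB S J N = fB S J := by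
  ext v; rw [mem_bB, mem_fB]
  refine and_congr_right fun hv => ?_
  rw [par_of_lt (h v hv)]

theorem par_succ {J : Finset ℕ} {m v : ℕ} (h : v ≠ m) : par J (m + 1) v ↔ par J m v := by
  have : (m + 1 ≤ v) ↔ (m ≤ v) := by omega
  simp only [par, this]

theorem bA_succ {S J : Finset ℕ} {k : ℕ} (h : k ∉ S ∨ k ∈ J) : bA S J (k + 1) = bA S J k := by
  ext v; simp only [bA, mem_filter]
  refine and_congr_right fun hv => ?_
  by_cases hvk : v = k
  · subst hvk
    rcases h with h | h
    · exact absurd hv h
    · simp [h]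
  · rw [par_succ hvk]

theorem bB_succ {S J : Finset ℕ} {k : ℕ} (h : k ∉ S ∨ k ∈ J) : bB S J (k + 1) = bB S J k := by
  ext v; simp only [bB, mem_filter]
  refine and_congr_right fun hv => ?_
  by_cases hvk : v = k
  · subst hvk
    rcases h with h | h
    · exact absurd hv h
    · simp [h]
  · rw [par_succ hvk]

/-- one more break point -/
theorem card_insert_filter {J : Finset ℕ} {k v : ℕ} (h : k ∉ J) :
    ((insert k J).filter (· < v)).card = (J.filter (· < v)).card + if k < v then 1 else 0 := by
  rw [filter_insert]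
  split_ifs with hk
  · rw [card_insert_of_notMem (by simp [h])]
  · simp

theorem ev_insert {J : Finset ℕ} {k v : ℕ} (h : k ∉ J) : ev (insert k J) v ↔ par J (k + 1) v := by
  rw [ev, card_insert_filter h, par]
  rfl

theorem mem_fA_insert {S J : Finset ℕ} {k v : ℕ} (h : k ∉ J) :
    v ∈ fA S (insert k J) ↔ v ∈ S ∧ (v = k ∨ v ∈ J ∨ par J (k + 1) v) := by
  simp only [fA, mem_filter, mem_insert, ev_insert h]
  tauto

theorem mem_fB_insert {S J : Finset ℕ} {k v : ℕ} (h : k ∉ J) :
    v ∈ fB S (insert k J) ↔ v ∈ S ∧ (v = k ∨ v ∈ J ∨ ¬ par J (k + 1) v) := by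
  simp only [fB, mem_filter, mem_insert, ev_insert h]
  tauto

theorem par_self_succ {J : Finset ℕ} {k : ℕ} : par J (k + 1) k ↔ ¬ par J k k := by
  simp only [par]
  rw [if_neg (by omega), if_pos le_rfl, add_zero, Nat.even_add_one, not_not]

/-- the two terms which omit the break point `k` -/
theorem pair_eq {f g : Co} {S J : Finset ℕ} {k : ℕ} (hS : k ∈ S) (h : k ∉ J) :
    f ((fA S (insert k J)).erase k) * g (fB S (insert k J)) +
      f (fA S (insert k J)) * g ((fB S (insert k J)).erase k) =
    f (bA S J k) * g (bB S J k) + f (bA S J (k + 1)) * g (bB S J (k + 1)) := by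
  by_cases hp : par J k k
  · have hp' : ¬ par J (k + 1) k := fun hc => par_self_succ.1 hc hp
    have e1 : (fA S (insert k J)).erase k = bA S J (k + 1) := by
      ext v
      rw [mem_erase, mem_fA_insert h, bA, mem_filter]
      constructor
      · rintro ⟨h1, h2, h3⟩
        exact ⟨h2, h3.resolve_left h1⟩
      · rintro ⟨h1, h2⟩
        have hv : v ≠ k := by
          rintro rfl
          exact h2.elim h hp'
        exact ⟨hv, h1, Or.inr h2⟩
    have e2 : fB S (insert k J) = bB S J (k + 1) := by
      ext v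
      rw [mem_fB_insert h, bB, mem_filter]
      refine and_congr_right fun _ => ⟨?_, Or.inr⟩
      rintro (rfl | h3)
      · exact Or.inr hp'
      · exact h3
    have e3 : fA S (insert k J) = bA S J k := by
      ext v
      rw [mem_fA_insert h, bA, mem_filter]
      refine and_congr_right fun _ => ?_
      by_cases hv : v = k
      · subst hv
        simp [hp]
      · rw [par_succ hv]
        simp [hv]
    have e4 : (fB S (insert k J)).erase k = bB S J k := by
      ext v
      rw [mem_erase, mem_fB_insert h, bB, mem_filter]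
      by_cases hv : v = k
      · subst hv
        simp [hp, h]
      · rw [par_succ hv]
        simp [hv]
    rw [e4, e1, e2, e3, add_comm]
  · have hp' : par J (k + 1) k := par_self_succ.2 hp
    have e1 : (fA S (insert k J)).erase k = bA S J k := by
      ext v
      rw [mem_erase, mem_fA_insert h, bA, mem_filter]
      by_cases hv : v = k
      · subst hv
        simp [hp, h]
      · rw [par_succ hv]
        simp [hv]
    have e2 : fB S (insert k J) = bB S J k := by
      ext v
      rw [mem_fB_insert h, bB, mem_filter]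
      refine and_congr_right fun _ => ?_
      by_cases hv : v = k
      · subst hv
        simp [hp]
      · rw [par_succ hv]
        simp [hv]
    have e3 : fA S (insert k J) = bA S J (k + 1) := by
      ext v
      rw [mem_fA_insert h, bA, mem_filter]
      refine and_congr_right fun _ => ⟨?_, Or.inr⟩
      rintro (rfl | h3)
      · exact Or.inr hp'
      · exact h3
    have e4 : (fB S (insert k J)).erase k = bB S J (k + 1) := by
      ext v
      rw [mem_erase, mem_fB_insert h, bB, mem_filter]
      constructor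
      · rintro ⟨h1, h2, h3⟩
        exact ⟨h2, h3.resolve_left h1⟩
      · rintro ⟨h1, h2⟩
        have hv : v ≠ k := by
          rintro rfl
          exact h2.elim h fun hc => hc hp'
        exact ⟨hv, h1, Or.inr h2⟩
    rw [e4, e1, e2, e3]

theorem telescope (G : ℕ → ZMod 2) (N : ℕ) : ∑ k ∈ range N, (G k + G (k + 1)) = G 0 + G N := by
  induction N with
  | zero => rw [sum_range_zero, CharTwo.add_self_eq_zero]
  | succ N ih =>
    rw [sum_range_succ, ih]
    have := CharTwo.add_self_eq_zero (G N)
    linear_combination this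

/-- the terms with one break point omitted -/
theorem sum_break (f g : Co) (S J : Finset ℕ) :
    ∑ k ∈ S \ J, (f (bA S J k) * g (bB S J k) + f (bA S J (k + 1)) * g (bB S J (k + 1))) =
      f (fA S J) * g (fB S J) + f (fB S J) * g (fA S J) := by
  obtain ⟨N, hN⟩ : ∃ N, ∀ v ∈ S, v < N := ⟨S.sup id + 1, fun v hv =>
    Nat.lt_succ_of_le (le_sup (f := id) hv)⟩
  have h1 : ∑ k ∈ S \ J, (f (bA S J k) * g (bB S J k) + f (bA S J (k + 1)) * g (bB S J (k + 1))) =
      ∑ k ∈ range N, (f (bA S J k) * g (bB S J k) + f (bA S J (k + 1)) * g (bB S J (k + 1))) := by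
    refine sum_subset (fun k hk => mem_range.2 (hN k (mem_sdiff.1 hk).1)) fun k _ hk => ?_
    have h : k ∉ S ∨ k ∈ J := by
      by_contra hc
      push Not at hc
      exact hk (mem_sdiff.2 ⟨hc.1, hc.2⟩)
    rw [bA_succ h, bB_succ h, CharTwo.add_self_eq_zero]
  rw [h1, telescope (fun k => f (bA S J k) * g (bB S J k)), bA_zero, bB_zero, bA_top hN,
    bB_top hN, add_comm]

/-- **The coboundary formula** of the cup-i products. -/
theorem dd_cupJ (j : ℕ) (f g : Co) :
    dd (cupJ (j + 1) f g) =
      cupJ (j + 1) (dd f) g + cupJ (j + 1) f (dd g) + cupJ j f g + cupJ j g f := by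
  funext S
  simp only [Pi.add_apply]
  -- the left side as a sum over `J`
  have hL : dd (cupJ (j + 1) f g) S = ∑ J ∈ S.powersetCard (j + 1), ∑ k ∈ S \ J,
      f ((fA S J).erase k) * g ((fB S J).erase k) := by
    simp only [dd, cupJ]
    rw [sum_comm' (t' := S.powersetCard (j + 1)) (s' := fun J => S \ J)]
    · refine sum_congr rfl fun J _ => sum_congr rfl fun k _ => ?_
      rw [fA_erase, fB_erase]
    · intro k J
      simp only [mem_powersetCard, mem_sdiff]
      constructor
      · rintro ⟨h1, h2, h3⟩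
        exact ⟨⟨h1, fun hk => notMem_erase k S (h2 hk)⟩, h2.trans (erase_subset _ _), h3⟩
      · rintro ⟨⟨h1, h2⟩, h3, h4⟩
        exact ⟨h1, fun v hv => mem_erase.2 ⟨fun hc => h2 (hc ▸ hv), h3 hv⟩, h4⟩
  have hsplit : ∀ J ∈ S.powersetCard (j + 1),
      dd f (fA S J) * g (fB S J) + f (fA S J) * dd g (fB S J) =
        ∑ k ∈ S \ J, f ((fA S J).erase k) * g ((fB S J).erase k) +
          ∑ k ∈ J, (f ((fA S J).erase k) * g (fB S J) + f (fA S J) * g ((fB S J).erase k)) := by
    intro J hJ
    have hJS := (mem_powersetCard.1 hJ).1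
    have hA : fA S J = J ∪ (S \ J).filter (ev J) := by
      ext v
      simp only [fA, mem_filter, mem_union, mem_sdiff]
      constructor
      · rintro ⟨h1, h2⟩
        by_cases hv : v ∈ J
        · exact Or.inl hv
        · exact Or.inr ⟨⟨h1, hv⟩, h2.resolve_left hv⟩
      · rintro (h | ⟨⟨h1, h2⟩, h3⟩)
        · exact ⟨hJS h, Or.inl h⟩
        · exact ⟨h1, Or.inr h3⟩
    have hB : fB S J = J ∪ (S \ J).filter (fun v => ¬ ev J v) := by
      ext v
      simp only [fB, mem_filter, mem_union, mem_sdiff]
      constructor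
      · rintro ⟨h1, h2⟩
        by_cases hv : v ∈ J
        · exact Or.inl hv
        · exact Or.inr ⟨⟨h1, hv⟩, h2.resolve_left hv⟩
      · rintro (h | ⟨⟨h1, h2⟩, h3⟩)
        · exact ⟨hJS h, Or.inl h⟩
        · exact ⟨h1, Or.inr h3⟩
    have dA : Disjoint J ((S \ J).filter (ev J)) := disjoint_left.2 fun v hv h =>
      (mem_sdiff.1 (mem_filter.1 h).1).2 hv
    have dB : Disjoint J ((S \ J).filter (fun v => ¬ ev J v)) := disjoint_left.2 fun v hv h =>
      (mem_sdiff.1 (mem_filter.1 h).1).2 hv
    have e1 : dd f (fA S J) = ∑ k ∈ J, f ((fA S J).erase k) +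
        ∑ k ∈ (S \ J).filter (ev J), f ((fA S J).erase k) := by
      rw [dd]
      conv_lhs => rw [hA]
      rw [sum_union dA, ← hA]
    have e2 : dd g (fB S J) = ∑ k ∈ J, g ((fB S J).erase k) +
        ∑ k ∈ (S \ J).filter (fun v => ¬ ev J v), g ((fB S J).erase k) := by
      rw [dd]
      conv_lhs => rw [hB]
      rw [sum_union dB, ← hB]
    have e3 : ∑ k ∈ S \ J, f ((fA S J).erase k) * g ((fB S J).erase k) =
        (∑ k ∈ (S \ J).filter (ev J), f ((fA S J).erase k)) * g (fB S J) +
        f (fA S J) * ∑ k ∈ (S \ J).filter (fun v => ¬ ev J v), g ((fB S J).erase k) := by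
      rw [← sum_filter_add_sum_filter_not (S \ J) (ev J), sum_mul, mul_sum]
      congr 1
      · refine sum_congr rfl fun k hk => ?_
        obtain ⟨h1, h2⟩ := mem_filter.1 hk
        rw [erase_eq_of_notMem (s := fB S J)]
        simp only [fB, mem_filter, not_and, not_or, not_not]
        exact fun _ => ⟨(mem_sdiff.1 h1).2, h2⟩
      · refine sum_congr rfl fun k hk => ?_
        obtain ⟨h1, h2⟩ := mem_filter.1 hk
        rw [erase_eq_of_notMem (s := fA S J)]
        simp only [fA, mem_filter, not_and, not_or]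
        exact fun _ => ⟨(mem_sdiff.1 h1).2, h2⟩
    rw [e1, e2, e3, sum_add_distrib, ← sum_mul, ← mul_sum]
    ring
  have hR : cupJ (j + 1) (dd f) g S + cupJ (j + 1) f (dd g) S =
      ∑ J ∈ S.powersetCard (j + 1), ∑ k ∈ S \ J, f ((fA S J).erase k) * g ((fB S J).erase k) +
      ∑ J ∈ S.powersetCard (j + 1), ∑ k ∈ J,
        (f ((fA S J).erase k) * g (fB S J) + f (fA S J) * g ((fB S J).erase k)) := by
    rw [cupJ, cupJ, ← sum_add_distrib, ← sum_add_distrib]
    exact sum_congr rfl hsplit
  have hK : ∑ J ∈ S.powersetCard (j + 1), ∑ k ∈ J,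
        (f ((fA S J).erase k) * g (fB S J) + f (fA S J) * g ((fB S J).erase k)) =
      cupJ j f g S + cupJ j g f S := by
    have h1 : ∑ J ∈ S.powersetCard (j + 1), ∑ k ∈ J,
        (f ((fA S J).erase k) * g (fB S J) + f (fA S J) * g ((fB S J).erase k)) =
        ∑ J ∈ S.powersetCard j, ∑ k ∈ S \ J,
          (f ((fA S (insert k J)).erase k) * g (fB S (insert k J)) +
            f (fA S (insert k J)) * g ((fB S (insert k J)).erase k)) := by
      rw [sum_sigma', sum_sigma']
      refine sum_bij' (fun a _ => ⟨a.1.erase a.2, a.2⟩) (fun a _ => ⟨insert a.2 a.1, a.2⟩)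
        ?_ ?_ ?_ ?_ ?_
      · rintro ⟨J, k⟩ h
        simp only [mem_sigma, mem_powersetCard] at h
        simp only [mem_sigma, mem_powersetCard, mem_sdiff]
        refine ⟨⟨(erase_subset _ _).trans h.1.1, ?_⟩, h.1.1 h.2, notMem_erase _ _⟩
        rw [card_erase_of_mem h.2, h.1.2]
        rfl
      · rintro ⟨J, k⟩ h
        simp only [mem_sigma, mem_powersetCard, mem_sdiff] at h
        simp only [mem_sigma, mem_powersetCard]
        refine ⟨⟨insert_subset h.2.1 h.1.1, ?_⟩, mem_insert_self _ _⟩
        rw [card_insert_of_notMem h.2.2, h.1.2]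
      · rintro ⟨J, k⟩ h
        simp only [mem_sigma] at h
        simp [insert_erase h.2]
      · rintro ⟨J, k⟩ h
        simp only [mem_sigma, mem_sdiff] at h
        simp [erase_insert h.2.2]
      · rintro ⟨J, k⟩ h
        simp only [mem_sigma] at h
        simp only [insert_erase h.2]
    rw [h1, cupJ, cupJ, ← sum_add_distrib]
    refine sum_congr rfl fun J hJ => ?_
    rw [← mul_comm (f (fB S J)), ← sum_break f g S J]
    exact sum_congr rfl fun k hk => pair_eq (mem_sdiff.1 hk).1 (mem_sdiff.1 hk).2
  have hh := CharTwo.add_self_eq_zero (cupJ j f g S + cupJ j g f S)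
  rw [hL, hR, hK]
  linear_combination -hh

end Vale.Agent.P263.H83
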