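import Vale.Agent.P263.H83.Susp

/-!
# P263: back suspension and the cup-i products, strictly

`sE c f` : the cochain `f ∪ s` on a simplex of `B ∧ S¹`, where the `S¹`-part has its jump at `c`
(the vertices `< c` go to `0`, the vertices `≥ c` go to `1`) and `s` is the generator.
-/

open Finset

namespace Vale.Agent.P263.H83

/-- back suspension with the jump at `c` -/
def sE (c : ℕ) (f : Co) : Co := fun S =>
  if (S.filter (c ≤ ·)).card = 1 then f (S.filter (· < c)) else 0

/-- the edge cochain of the jump at `c` -/
def eC (c : ℕ) : Co := fun S =>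
  if (S.filter (c ≤ ·)).card = 1 ∧ (S.filter (· < c)).card = 1 then 1 else 0

theorem eC_empty (c : ℕ) : eC c ∅ = 0 := by simp [eC]

theorem sE_add (c : ℕ) (f g : Co) : sE c (f + g) = sE c f + sE c g := by
  funext S
  simp only [sE, Pi.add_apply]
  split_ifs
  · rfl
  · rw [add_zero]

theorem sE_zero (c : ℕ) : sE c 0 = 0 := by
  funext S
  simp [sE]

theorem sE_empty (c : ℕ) (f : Co) : sE c f ∅ = 0 := by simp [sE]

theorem card_lt_add_card_le (S : Finset ℕ) (c : ℕ) :
    (S.filter (· < c)).card + (S.filter (c ≤ ·)).card = S.card := by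
  have := card_filter_add_card_filter_not (s := S) (· < c)
  simpa only [not_lt] using this

/-- `f ∪ s` -/
theorem cup_eC (c : ℕ) (f : Co) (hf : f ∅ = 0) : cupJ 1 f (eC c) = sE c f := by
  funext S
  rw [cup_apply, sE]
  by_cases h1 : (S.filter (c ≤ ·)).card = 1
  · rw [if_pos h1]
    obtain ⟨m, hm⟩ := card_eq_one.1 h1
    have hmS : m ∈ S.filter (c ≤ ·) := by rw [hm]; exact mem_singleton_self m
    have hmS' := mem_filter.1 hmS
    have hhigh : ∀ v ∈ S, c ≤ v → v = m := fun v hv hvc => by
      have : v ∈ S.filter (c ≤ ·) := mem_filter.2 ⟨hv, hvc⟩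
      rw [hm] at this
      exact mem_singleton.1 this
    rcases (S.filter (· < c)).eq_empty_or_nonempty with h0 | h0
    · rw [h0, hf]
      refine sum_eq_zero fun k hk => ?_
      have : (S.filter (k ≤ ·)).filter (· < c) = ∅ := by
        rw [filter_filter]
        refine filter_false_of_mem fun v hv hc => ?_
        have : v ∈ S.filter (· < c) := mem_filter.2 ⟨hv, hc.2⟩
        rw [h0] at this
        exact notMem_empty v this
      rw [eC, this, card_empty, if_neg (by omega), mul_zero]
    · set k := (S.filter (· < c)).max' h0 with hk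
      have hkS : k ∈ S.filter (· < c) := max'_mem _ _
      have hkS' := mem_filter.1 hkS
      have hmax : ∀ v ∈ S, v < c → v ≤ k := fun v hv hc => le_max' _ _ (mem_filter.2 ⟨hv, hc⟩)
      rw [sum_eq_single_of_mem k hkS'.1]
      · have e1 : S.filter (· ≤ k) = S.filter (· < c) := by
          ext v; simp only [mem_filter]
          refine and_congr_right fun hv => ⟨fun h => lt_of_le_of_lt h hkS'.2, hmax v hv⟩
        have e2 : (S.filter (k ≤ ·)).filter (c ≤ ·) = {m} := by
          ext v; simp only [mem_filter, mem_singleton]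
          constructor
          · rintro ⟨⟨a, _⟩, b⟩; exact hhigh v a b
          · rintro rfl; exact ⟨⟨hmS'.1, by omega⟩, hmS'.2⟩
        have e3 : (S.filter (k ≤ ·)).filter (· < c) = {k} := by
          ext v; simp only [mem_filter, mem_singleton]
          constructor
          · rintro ⟨⟨a, b⟩, c'⟩; exact le_antisymm (hmax v a c') b
          · rintro rfl; exact ⟨⟨hkS'.1, le_rfl⟩, hkS'.2⟩
        rw [e1, eC, e2, e3, card_singleton, card_singleton, if_pos ⟨rfl, rfl⟩, mul_one]
      · intro l hl hlk
        have : eC c (S.filter (l ≤ ·)) = 0 := by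
          rw [eC, if_neg]
          rintro ⟨h3, h4⟩
          obtain ⟨x, hx⟩ := card_eq_one.1 h4
          by_cases hlc : l < c
          · have a1 : l ∈ (S.filter (l ≤ ·)).filter (· < c) :=
              mem_filter.2 ⟨mem_filter.2 ⟨hl, le_rfl⟩, hlc⟩
            have a2 : k ∈ (S.filter (l ≤ ·)).filter (· < c) :=
              mem_filter.2 ⟨mem_filter.2 ⟨hkS'.1, hmax l hl hlc⟩, hkS'.2⟩
            rw [hx, mem_singleton] at a1 a2
            exact hlk (a1.trans a2.symm)
          · have : x ∈ (S.filter (l ≤ ·)).filter (· < c) := by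
              rw [hx]; exact mem_singleton_self x
            have b1 := mem_filter.1 this
            have b2 := mem_filter.1 b1.1
            have b3 := b1.2
            omega
        rw [this, mul_zero]
  · rw [if_neg h1]
    refine sum_eq_zero fun k hk => ?_
    by_cases hk2 : k < c
    · have e2 : (S.filter (k ≤ ·)).filter (c ≤ ·) = S.filter (c ≤ ·) := by
        ext v; simp only [mem_filter]
        constructor
        · rintro ⟨⟨a, _⟩, b⟩; exact ⟨a, b⟩
        · rintro ⟨a, b⟩; exact ⟨⟨a, by omega⟩, b⟩
      rw [eC, e2, if_neg (fun h => h1 h.1), mul_zero]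
    · have e3 : (S.filter (k ≤ ·)).filter (· < c) = ∅ := by
        rw [filter_filter]
        exact filter_false_of_mem fun v _ hc => by omega
      rw [eC, e3, card_empty, if_neg (by omega), mul_zero]

theorem dd_eC (c : ℕ) : dd (eC c) = fun S =>
    (if (S.filter (c ≤ ·)).card = 1 ∧ (S.filter (· < c)).card = 2 then (2 : ZMod 2) else 0) +
    (if (S.filter (c ≤ ·)).card = 2 ∧ (S.filter (· < c)).card = 1 then (2 : ZMod 2) else 0) := by
  funext S
  have hsplit : dd (eC c) S = ∑ k ∈ S.filter (· < c), eC c (S.erase k) +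
      ∑ k ∈ S.filter (c ≤ ·), eC c (S.erase k) := by
    rw [dd, ← sum_filter_add_sum_filter_not S (· < c)]
    simp only [not_lt]
  rw [hsplit]
  congr 1
  · have h : ∀ k ∈ S.filter (· < c), eC c (S.erase k) =
        if (S.filter (c ≤ ·)).card = 1 ∧ (S.filter (· < c)).card = 2 then 1 else 0 := by
      intro k hk
      have hk' := mem_filter.1 hk
      have e1 : (S.erase k).filter (· < c) = (S.filter (· < c)).erase k := by
        ext v; simp only [mem_filter, mem_erase]; tauto
      have e2 : (S.erase k).filter (c ≤ ·) = S.filter (c ≤ ·) := by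
        ext v; simp only [mem_filter, mem_erase]
        constructor
        · rintro ⟨⟨_, h2⟩, h3⟩
          exact ⟨h2, h3⟩
        · rintro ⟨h2, h3⟩
          exact ⟨⟨by omega, h2⟩, h3⟩
      have hpos : 0 < (S.filter (· < c)).card := card_pos.2 ⟨k, hk⟩
      rw [eC, e1, e2, card_erase_of_mem hk]
      have : ((S.filter (· < c)).card - 1 = 1) ↔ (S.filter (· < c)).card = 2 := by omega
      simp only [this]
    rw [sum_congr rfl h, sum_const]
    split_ifs with h2
    · rw [h2.2]; rfl
    · rw [smul_zero]
  · have h : ∀ k ∈ S.filter (c ≤ ·), eC c (S.erase k) =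
        if (S.filter (c ≤ ·)).card = 2 ∧ (S.filter (· < c)).card = 1 then 1 else 0 := by
      intro k hk
      have hk' := mem_filter.1 hk
      have e1 : (S.erase k).filter (· < c) = S.filter (· < c) := by
        ext v; simp only [mem_filter, mem_erase]
        constructor
        · rintro ⟨⟨_, h2⟩, h3⟩
          exact ⟨h2, h3⟩
        · rintro ⟨h2, h3⟩
          exact ⟨⟨by omega, h2⟩, h3⟩
      have e2 : (S.erase k).filter (c ≤ ·) = (S.filter (c ≤ ·)).erase k := by
        ext v; simp only [mem_filter, mem_erase]; tauto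
      have hpos : 0 < (S.filter (c ≤ ·)).card := card_pos.2 ⟨k, hk⟩
      rw [eC, e1, e2, card_erase_of_mem hk]
      have : ((S.filter (c ≤ ·)).card - 1 = 1) ↔ (S.filter (c ≤ ·)).card = 2 := by omega
      simp only [this]
    rw [sum_congr rfl h, sum_const]
    split_ifs with h2
    · rw [h2.1]; rfl
    · rw [smul_zero]

theorem dd_eC_zero (c : ℕ) : dd (eC c) = 0 := by
  rw [dd_eC]
  funext S
  have : (2 : ZMod 2) = 0 := rfl
  simp only [this, ite_self, add_zero, Pi.zero_apply]

/-- **The back suspension identity**, strictly on cochains. -/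
theorem cupJ_sE (c j : ℕ) (f g : Co) :
    cupJ (j + 1) (sE c f) (sE c g) = sE c (cupJ j f g) := by
  funext S
  by_cases ha : (S.filter (c ≤ ·)).card = 1
  · obtain ⟨m, hm⟩ := card_eq_one.1 ha
    have hmS : m ∈ S.filter (c ≤ ·) := by rw [hm]; exact mem_singleton_self m
    have hmS' := mem_filter.1 hmS
    have hhigh : ∀ v ∈ S, c ≤ v → v = m := fun v hv hvc => by
      have : v ∈ S.filter (c ≤ ·) := mem_filter.2 ⟨hv, hvc⟩
      rw [hm] at this
      exact mem_singleton.1 this
    set T := S.filter (· < c) with hT
    have hTm : ∀ v ∈ T, v < m := fun v hv => lt_of_lt_of_le (mem_filter.1 hv).2 hmS'.2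
    have hmT : m ∉ T := fun h => lt_irrefl m (hTm m h)
    have hST : S = insert m T := by
      ext v
      simp only [mem_insert, hT, mem_filter]
      constructor
      · intro hv
        by_cases hvc : c ≤ v
        · exact Or.inl (hhigh v hv hvc)
        · exact Or.inr ⟨hv, not_le.1 hvc⟩
      · rintro (rfl | ⟨h, _⟩)
        · exact hmS'.1
        · exact h
    rw [sE, if_pos ha, cupJ, cupJ]
    have hbij : ∑ J ∈ T.powersetCard j, f (fA T J) * g (fB T J) =
        ∑ J ∈ (S.powersetCard (j + 1)).filter (m ∈ ·), sE c f (fA S J) * sE c g (fB S J) := by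
      refine sum_bij' (fun J _ => insert m J) (fun J _ => J.erase m) ?_ ?_ ?_ ?_ ?_
      · intro J hJ
        obtain ⟨h1, h2⟩ := mem_powersetCard.1 hJ
        have hmJ : m ∉ J := fun h => hmT (h1 h)
        refine mem_filter.2 ⟨mem_powersetCard.2 ⟨?_, ?_⟩, mem_insert_self _ _⟩
        · rw [hST]
          exact insert_subset_insert m h1
        · rw [card_insert_of_notMem hmJ, h2]
      · intro J hJ
        obtain ⟨h1, h2⟩ := mem_filter.1 hJ
        obtain ⟨h3, h4⟩ := mem_powersetCard.1 h1
        refine mem_powersetCard.2 ⟨fun v hv => ?_, ?_⟩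
        · have hv' := mem_erase.1 hv
          have := h3 hv'.2
          rw [hST] at this
          exact (mem_insert.1 this).resolve_left hv'.1
        · rw [card_erase_of_mem h2, h4]
          rfl
      · intro J hJ
        obtain ⟨h1, h2⟩ := mem_powersetCard.1 hJ
        exact erase_insert fun h => hmT (h1 h)
      · intro J hJ
        exact insert_erase (mem_filter.1 hJ).2
      · intro J hJ
        obtain ⟨h1, h2⟩ := mem_powersetCard.1 hJ
        have hmJ : m ∉ J := fun h => hmT (h1 h)
        have hev : ∀ v ∈ T, (ev (insert m J) v ↔ ev J v) := fun v hv => by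
          rw [ev, card_insert_filter hmJ, if_neg (not_lt.2 (hTm v hv).le), add_zero, ev]
        have eA1 : (fA S (insert m J)).filter (c ≤ ·) = {m} := by
          ext v
          simp only [mem_filter, mem_fA, mem_insert, mem_singleton]
          constructor
          · rintro ⟨⟨h3, _⟩, h4⟩
            exact hhigh v h3 h4
          · rintro rfl
            exact ⟨⟨hmS'.1, Or.inl (Or.inl rfl)⟩, hmS'.2⟩
        have eB1 : (fB S (insert m J)).filter (c ≤ ·) = {m} := by
          ext v
          simp only [mem_filter, mem_fB, mem_insert, mem_singleton]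
          constructor
          · rintro ⟨⟨h3, _⟩, h4⟩
            exact hhigh v h3 h4
          · rintro rfl
            exact ⟨⟨hmS'.1, Or.inl (Or.inl rfl)⟩, hmS'.2⟩
        have eA2 : (fA S (insert m J)).filter (· < c) = fA T J := by
          ext v
          rw [mem_filter, mem_fA, mem_fA, hT, mem_filter, mem_insert]
          constructor
          · rintro ⟨⟨h3, h4⟩, h5⟩
            have hvT : v ∈ T := mem_filter.2 ⟨h3, h5⟩
            refine ⟨⟨h3, h5⟩, ?_⟩
            rcases h4 with (h4 | h4) | h4
            · exact absurd (h4 ▸ hvT) hmT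
            · exact Or.inl h4
            · exact Or.inr ((hev v hvT).1 h4)
          · rintro ⟨⟨h3, h5⟩, h4⟩
            have hvT : v ∈ T := mem_filter.2 ⟨h3, h5⟩
            exact ⟨⟨h3, h4.elim (fun h => Or.inl (Or.inr h)) fun h => Or.inr ((hev v hvT).2 h)⟩, h5⟩
        have eB2 : (fB S (insert m J)).filter (· < c) = fB T J := by
          ext v
          rw [mem_filter, mem_fB, mem_fB, hT, mem_filter, mem_insert]
          constructor
          · rintro ⟨⟨h3, h4⟩, h5⟩
            have hvT : v ∈ T := mem_filter.2 ⟨h3, h5⟩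
            refine ⟨⟨h3, h5⟩, ?_⟩
            rcases h4 with (h4 | h4) | h4
            · exact absurd (h4 ▸ hvT) hmT
            · exact Or.inl h4
            · exact Or.inr fun hc => h4 ((hev v hvT).2 hc)
          · rintro ⟨⟨h3, h5⟩, h4⟩
            have hvT : v ∈ T := mem_filter.2 ⟨h3, h5⟩
            exact ⟨⟨h3, h4.elim (fun h => Or.inl (Or.inr h)) fun h => Or.inr fun hc =>
              h ((hev v hvT).1 hc)⟩, h5⟩
        rw [sE, sE, eA1, eB1, eA2, eB2, card_singleton, if_pos rfl, if_pos rfl]
    rw [hbij, sum_filter]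
    refine (sum_congr rfl fun J hJ => ?_).symm
    by_cases hmJ : m ∈ J
    · rw [if_pos hmJ]
    · rw [if_neg hmJ]
      by_cases hev : ev J m
      · have : (fB S J).filter (c ≤ ·) = ∅ := by
          refine filter_false_of_mem fun v hv hvc => ?_
          obtain ⟨h1, h2⟩ := mem_fB.1 hv
          have := hhigh v h1 hvc
          subst this
          exact h2.elim hmJ fun h => h hev
        have h0 : sE c g (fB S J) = 0 := by
          rw [sE, this, card_empty, if_neg (by norm_num)]
        rw [h0, mul_zero]
      · have : (fA S J).filter (c ≤ ·) = ∅ := by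
          refine filter_false_of_mem fun v hv hvc => ?_
          obtain ⟨h1, h2⟩ := mem_fA.1 hv
          have := hhigh v h1 hvc
          subst this
          exact h2.elim hmJ fun h => hev h
        have h0 : sE c f (fA S J) = 0 := by
          rw [sE, this, card_empty, if_neg (by norm_num)]
        rw [h0, zero_mul]
  · rw [sE, if_neg ha, cupJ]
    refine sum_eq_zero fun J hJ => ?_
    have hJ' := (mem_powersetCard.1 hJ).1
    rw [sE, sE]
    split_ifs with h1 h2
    · exfalso
      obtain ⟨x, hx⟩ := card_eq_one.1 h1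
      obtain ⟨y, hy⟩ := card_eq_one.1 h2
      have hx1 : ∀ v, v ∈ fA S J → c ≤ v → v = x := fun v h3 h4 => by
        have : v ∈ (fA S J).filter (c ≤ ·) := mem_filter.2 ⟨h3, h4⟩
        rw [hx] at this
        exact mem_singleton.1 this
      have hy1 : ∀ v, v ∈ fB S J → c ≤ v → v = y := fun v h3 h4 => by
        have : v ∈ (fB S J).filter (c ≤ ·) := mem_filter.2 ⟨h3, h4⟩
        rw [hy] at this
        exact mem_singleton.1 this
      have hxA : x ∈ (fA S J).filter (c ≤ ·) := by rw [hx]; exact mem_singleton_self x
      have hyB : y ∈ (fB S J).filter (c ≤ ·) := by rw [hy]; exact mem_singleton_self y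
      obtain ⟨hxA1, hxc⟩ := mem_filter.1 hxA
      obtain ⟨hyB1, hyc⟩ := mem_filter.1 hyB
      by_cases hxy : x = y
      · refine ha (card_eq_one.2 ⟨x, ?_⟩)
        ext v
        rw [mem_filter, mem_singleton]
        constructor
        · rintro ⟨h3, h4⟩
          by_cases hv : ev J v
          · exact hx1 v (mem_fA.2 ⟨h3, Or.inr hv⟩) h4
          · rw [hxy]
            exact hy1 v (mem_fB.2 ⟨h3, Or.inr hv⟩) h4
        · rintro rfl
          exact ⟨(mem_fA.1 hxA1).1, hxc⟩
      · -- no break points `≥ c`
        have hno : ∀ k ∈ J, k < c := by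
          intro k hk
          by_contra hc
          have hc := not_lt.1 hc
          exact hxy ((hx1 k (subset_fA hJ' hk) hc).symm.trans (hy1 k (subset_fB hJ' hk) hc))
        have hfl : ∀ v, c ≤ v → J.filter (· < v) = J := fun v hv =>
          filter_true_of_mem fun k hk => lt_of_lt_of_le (hno k hk) hv
        have hevxy : ev J x ↔ ev J y := by rw [ev, ev, hfl x hxc, hfl y hyc]
        have hxJ : x ∉ J := fun h => by have := hno x h; omega
        have hyJ : y ∉ J := fun h => by have := hno y h; omega
        have h5 : ev J x := (mem_fA.1 hxA1).2.resolve_left hxJ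
        have h6 : ¬ ev J y := (mem_fB.1 hyB1).2.resolve_left hyJ
        exact h6 (hevxy.1 h5)
    · rw [mul_zero]
    · rw [zero_mul]
    · rw [zero_mul]

theorem dd_sE (c : ℕ) (f : Co) (hf : f ∅ = 0) : dd (sE c f) = sE c (dd f) := by
  rw [← cup_eC c f hf, dd_cup f (eC c) hf (eC_empty c), dd_eC_zero,
    cup_eC c (dd f) (by rfl)]
  have : cupJ 1 f 0 = 0 := by
    funext S
    simp [cupJ]
  rw [this, add_zero]

theorem Deg.eC (c : ℕ) : Deg 1 (eC c) := fun S hS => by
  rw [H83.eC, if_neg]
  rintro ⟨h1, h2⟩
  have := card_lt_add_card_le S c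
  omega

theorem Deg.sE {q : ℕ} {f : Co} (hf : Deg q f) (c : ℕ) : Deg (q + 1) (sE c f) := fun S hS => by
  rw [H83.sE]
  split_ifs with h
  · refine hf _ fun hc => hS ?_
    have := card_lt_add_card_le S c
    omega
  · rfl

end Vale.Agent.P263.H83
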