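import Vale.Agent.P263.H83.CupI

/-!
# P263: suspension and the cup-i products, strictly

`su c f` : the cochain `s ∪ f` on a simplex of `S¹ ∧ B`, where the `S¹`-part has its jump at `c`
(the vertices `< c` go to `0`, the vertices `≥ c` go to `1`) and `s` is the generator.
-/

open Finset

namespace Vale.Agent.P263.H83

/-- suspension with the jump at `c` -/
def su (c : ℕ) (f : Co) : Co := fun S =>
  if (S.filter (· < c)).card = 1 then f (S.filter (c ≤ ·)) else 0

theorem su_add (c : ℕ) (f g : Co) : su c (f + g) = su c f + su c g := by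
  funext S
  simp only [su, Pi.add_apply]
  split_ifs
  · rfl
  · rw [add_zero]

theorem su_zero (c : ℕ) : su c 0 = 0 := by
  funext S
  simp [su]

theorem su_empty (c : ℕ) (f : Co) : su c f ∅ = 0 := by simp [su]

theorem dd_su (c : ℕ) (f : Co) : dd (su c f) = su c (dd f) := by
  funext S
  have hsplit : dd (su c f) S = ∑ k ∈ S.filter (· < c), su c f (S.erase k) +
      ∑ k ∈ S.filter (c ≤ ·), su c f (S.erase k) := by
    rw [dd, ← sum_filter_add_sum_filter_not S (· < c)]
    simp only [not_lt]
  have h1 : ∑ k ∈ S.filter (· < c), su c f (S.erase k) = 0 := by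
    have h : ∀ k ∈ S.filter (· < c), su c f (S.erase k) =
        if (S.filter (· < c)).card = 2 then f (S.filter (c ≤ ·)) else 0 := by
      intro k hk
      have hk' := mem_filter.1 hk
      have e1 : (S.erase k).filter (· < c) = (S.filter (· < c)).erase k := by
        ext v; simp only [mem_filter, mem_erase]; tauto
      have e2 : (S.erase k).filter (c ≤ ·) = S.filter (c ≤ ·) := by
        ext v; simp only [mem_filter, mem_erase]
        constructor
        · rintro ⟨⟨_, h2⟩, h3⟩
          exact ⟨h2, h3⟩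
        · rintro ⟨h2, h3⟩
          exact ⟨⟨by omega, h2⟩, h3⟩
      have hpos : 0 < (S.filter (· < c)).card := card_pos.2 ⟨k, hk⟩
      rw [su, e1, e2, card_erase_of_mem hk]
      have : ((S.filter (· < c)).card - 1 = 1) ↔ (S.filter (· < c)).card = 2 := by omega
      simp only [this]
    rw [sum_congr rfl h, sum_const]
    split_ifs with h2
    · rw [h2, two_nsmul, CharTwo.add_self_eq_zero]
    · rw [smul_zero]
  have h2 : ∑ k ∈ S.filter (c ≤ ·), su c f (S.erase k) = su c (dd f) S := by
    have h : ∀ k ∈ S.filter (c ≤ ·), su c f (S.erase k) =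
        if (S.filter (· < c)).card = 1 then f ((S.filter (c ≤ ·)).erase k) else 0 := by
      intro k hk
      have hk' := mem_filter.1 hk
      have e1 : (S.erase k).filter (· < c) = S.filter (· < c) := by
        ext v; simp only [mem_filter, mem_erase]
        constructor
        · rintro ⟨⟨_, h2⟩, h3⟩
          exact ⟨h2, h3⟩
        · rintro ⟨h2, h3⟩
          exact ⟨⟨by omega, h2⟩, h3⟩
      have e2 : (S.erase k).filter (c ≤ ·) = (S.filter (c ≤ ·)).erase k := by
        ext v; simp only [mem_filter, mem_erase]; tauto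
      rw [su, e1, e2]
    rw [sum_congr rfl h, su]
    split_ifs
    · rfl
    · simp
  rw [hsplit, h1, h2, zero_add]

theorem ev_of_forall_le {J : Finset ℕ} {m : ℕ} (h : ∀ v ∈ J, m ≤ v) : ev J m := by
  have : J.filter (· < m) = ∅ := filter_false_of_mem fun v hv => not_lt.2 (h v hv)
  rw [ev, this]
  exact ⟨0, rfl⟩

theorem exists_of_not_ev {J : Finset ℕ} {v : ℕ} (h : ¬ ev J v) : ∃ k ∈ J, k < v := by
  by_contra hc
  push Not at hc
  exact h (ev_of_forall_le fun k hk => hc k hk)

theorem ev_insert_of_lt {J : Finset ℕ} {m v : ℕ} (hm : m ∉ J) (h : m < v) :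
    ev (insert m J) v ↔ ¬ ev J v := by
  rw [ev, card_insert_filter hm, if_pos h, Nat.even_add_one, ev]

/-- **The suspension identity**, strictly on cochains. -/
theorem cupJ_su (c j : ℕ) (f g : Co) :
    cupJ (j + 1) (su c f) (su c g) = su c (cupJ j g f) := by
  funext S
  by_cases ha : (S.filter (· < c)).card = 1
  · obtain ⟨m, hm⟩ := card_eq_one.1 ha
    have hmS : m ∈ S.filter (· < c) := by rw [hm]; exact mem_singleton_self m
    have hmS' := mem_filter.1 hmS
    have hlow : ∀ v ∈ S, v < c → v = m := fun v hv hvc => by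
      have : v ∈ S.filter (· < c) := mem_filter.2 ⟨hv, hvc⟩
      rw [hm] at this
      exact mem_singleton.1 this
    have hmin : ∀ v ∈ S, m ≤ v := fun v hv => by
      by_cases hvc : v < c
      · exact (hlow v hv hvc).ge
      · omega
    set T := S.filter (c ≤ ·) with hT
    have hmT : m ∉ T := fun h => by have := (mem_filter.1 h).2; omega
    have hST : S = insert m T := by
      ext v
      simp only [mem_insert, hT, mem_filter]
      constructor
      · intro hv
        by_cases hvc : v < c
        · exact Or.inl (hlow v hv hvc)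
        · exact Or.inr ⟨hv, not_lt.1 hvc⟩
      · rintro (rfl | ⟨h, _⟩)
        · exact hmS'.1
        · exact h
    rw [su, if_pos ha, cupJ, cupJ]
    have hbij : ∑ J ∈ T.powersetCard j, g (fA T J) * f (fB T J) =
        ∑ J ∈ (S.powersetCard (j + 1)).filter (m ∈ ·), su c f (fA S J) * su c g (fB S J) := by
      refine sum_bij' (fun J _ => insert m J) (fun J _ => J.erase m) ?_ ?_ ?_ ?_ ?_
      · intro J hJ
        obtain ⟨h1, h2⟩ := mem_powersetCard.1 hJ
        have hmJ : m ∉ J := fun h => hmT (h1 h)
        refine mem_filter.2 ⟨mem_powersetCard.2 ⟨?_, ?_⟩, mem_insert_self _ _⟩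
        · rw [hST]
          exact insert_subset_insert m h1
        · rw [card_insert_of_notMem hmJ, h2]
      · intro J hJ
        obtain ⟨h1, h2⟩ := mem_filter.1 hJ
        obtain ⟨h3, h4⟩ := mem_powersetCard.1 h1
        refine mem_powersetCard.2 ⟨fun v hv => ?_, ?_⟩
        · have hv' := mem_erase.1 hv
          have := h3 hv'.2
          rw [hST] at this
          exact (mem_insert.1 this).resolve_left hv'.1
        · rw [card_erase_of_mem h2, h4]
          rfl
      · intro J hJ
        obtain ⟨h1, h2⟩ := mem_powersetCard.1 hJ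
        exact erase_insert fun h => hmT (h1 h)
      · intro J hJ
        exact insert_erase (mem_filter.1 hJ).2
      · intro J hJ
        obtain ⟨h1, h2⟩ := mem_powersetCard.1 hJ
        have hmJ : m ∉ J := fun h => hmT (h1 h)
        have hev : ∀ v ∈ T, (ev (insert m J) v ↔ ¬ ev J v) := fun v hv =>
          ev_insert_of_lt hmJ (by
            have := (mem_filter.1 hv).2
            have := hmS'.2
            omega)
        have eA1 : (fA S (insert m J)).filter (· < c) = {m} := by
          ext v
          simp only [mem_filter, mem_fA, mem_insert, mem_singleton]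
          constructor
          · rintro ⟨⟨h3, _⟩, h4⟩
            exact hlow v h3 h4
          · rintro rfl
            exact ⟨⟨hmS'.1, Or.inl (Or.inl rfl)⟩, hmS'.2⟩
        have eB1 : (fB S (insert m J)).filter (· < c) = {m} := by
          ext v
          simp only [mem_filter, mem_fB, mem_insert, mem_singleton]
          constructor
          · rintro ⟨⟨h3, _⟩, h4⟩
            exact hlow v h3 h4
          · rintro rfl
            exact ⟨⟨hmS'.1, Or.inl (Or.inl rfl)⟩, hmS'.2⟩
        have eA2 : (fA S (insert m J)).filter (c ≤ ·) = fB T J := by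
          ext v
          rw [mem_filter, mem_fA, mem_fB, hT, mem_filter, mem_insert]
          constructor
          · rintro ⟨⟨h3, h4⟩, h5⟩
            have hvT : v ∈ T := mem_filter.2 ⟨h3, h5⟩
            refine ⟨⟨h3, h5⟩, ?_⟩
            rcases h4 with (h4 | h4) | h4
            · exact absurd (h4 ▸ hvT) hmT
            · exact Or.inl h4
            · exact Or.inr ((hev v hvT).1 h4)
          · rintro ⟨⟨h3, h5⟩, h4⟩
            have hvT : v ∈ T := mem_filter.2 ⟨h3, h5⟩
            exact ⟨⟨h3, h4.elim (fun h => Or.inl (Or.inr h)) fun h => Or.inr ((hev v hvT).2 h)⟩, h5⟩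
        have eB2 : (fB S (insert m J)).filter (c ≤ ·) = fA T J := by
          ext v
          rw [mem_filter, mem_fB, mem_fA, hT, mem_filter, mem_insert]
          constructor
          · rintro ⟨⟨h3, h4⟩, h5⟩
            have hvT : v ∈ T := mem_filter.2 ⟨h3, h5⟩
            refine ⟨⟨h3, h5⟩, ?_⟩
            rcases h4 with (h4 | h4) | h4
            · exact absurd (h4 ▸ hvT) hmT
            · exact Or.inl h4
            · refine Or.inr ?_
              by_contra hc
              exact h4 ((hev v hvT).2 hc)
          · rintro ⟨⟨h3, h5⟩, h4⟩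
            have hvT : v ∈ T := mem_filter.2 ⟨h3, h5⟩
            exact ⟨⟨h3, h4.elim (fun h => Or.inl (Or.inr h)) fun h => Or.inr fun hc =>
              (hev v hvT).1 hc h⟩, h5⟩
        rw [su, su, eA1, eB1, eA2, eB2, card_singleton, if_pos rfl, if_pos rfl, mul_comm]
    rw [hbij, sum_filter]
    refine (sum_congr rfl fun J hJ => ?_).symm
    by_cases hmJ : m ∈ J
    · rw [if_pos hmJ]
    · rw [if_neg hmJ]
      have hJ' := mem_powersetCard.1 hJ
      have : (fB S J).filter (· < c) = ∅ := by
        refine filter_false_of_mem fun v hv hvc => ?_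
        obtain ⟨h1, h2⟩ := mem_fB.1 hv
        have := hlow v h1 hvc
        subst this
        exact h2.elim hmJ fun h => h (ev_of_forall_le fun k hk => hmin k (hJ'.1 hk))
      have h0 : su c g (fB S J) = 0 := by
        rw [su, this, card_empty, if_neg (by norm_num)]
      rw [h0, mul_zero]
  · rw [su, if_neg ha, cupJ]
    refine sum_eq_zero fun J hJ => ?_
    have hJ' := (mem_powersetCard.1 hJ).1
    rw [su, su]
    split_ifs with h1 h2
    · exfalso
      obtain ⟨x, hx⟩ := card_eq_one.1 h1
      obtain ⟨y, hy⟩ := card_eq_one.1 h2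
      have hxA : x ∈ (fA S J).filter (· < c) := by rw [hx]; exact mem_singleton_self x
      have hyB : y ∈ (fB S J).filter (· < c) := by rw [hy]; exact mem_singleton_self y
      have hx1 : ∀ v, v ∈ fA S J → v < c → v = x := fun v h3 h4 => by
        have : v ∈ (fA S J).filter (· < c) := mem_filter.2 ⟨h3, h4⟩
        rw [hx] at this
        exact mem_singleton.1 this
      have hy1 : ∀ v, v ∈ fB S J → v < c → v = y := fun v h3 h4 => by
        have : v ∈ (fB S J).filter (· < c) := mem_filter.2 ⟨h3, h4⟩
        rw [hy] at this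
        exact mem_singleton.1 this
      obtain ⟨hxA1, hxc⟩ := mem_filter.1 hxA
      obtain ⟨hyB1, hyc⟩ := mem_filter.1 hyB
      have hxS := (mem_fA.1 hxA1).1
      -- the minimum of `S`
      set m := S.min' ⟨x, hxS⟩ with hmdef
      have hmS : m ∈ S := min'_mem _ _
      have hmin : ∀ v ∈ S, m ≤ v := fun v hv => min'_le _ _ hv
      have hmev : ev J m := ev_of_forall_le fun k hk => hmin k (hJ' hk)
      have hmA : m ∈ fA S J := mem_fA.2 ⟨hmS, Or.inr hmev⟩
      have hmc : m < c := lt_of_le_of_lt (hmin x hxS) hxc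
      have hmx : m = x := hx1 m hmA hmc
      by_cases hmJ : m ∈ J
      · have hmB : m ∈ fB S J := mem_fB.2 ⟨hmS, Or.inl hmJ⟩
        have hmy : m = y := hy1 m hmB hmc
        refine ha (card_eq_one.2 ⟨m, ?_⟩)
        ext v
        rw [mem_filter, mem_singleton]
        constructor
        · rintro ⟨h3, h4⟩
          by_cases hv : ev J v
          · rw [hmx]
            exact hx1 v (mem_fA.2 ⟨h3, Or.inr hv⟩) h4
          · rw [hmy]
            exact hy1 v (mem_fB.2 ⟨h3, Or.inr hv⟩) h4
        · rintro rfl
          exact ⟨hmS, hmc⟩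
      · obtain ⟨k, hkJ, hky⟩ : ∃ k ∈ J, k ≤ y := by
          rcases (mem_fB.1 hyB1).2 with h3 | h3
          · exact ⟨y, h3, le_rfl⟩
          · obtain ⟨k, hk, hk'⟩ := exists_of_not_ev h3
            exact ⟨k, hk, hk'.le⟩
        have : k = x := hx1 k (mem_fA.2 ⟨hJ' hkJ, Or.inl hkJ⟩) (lt_of_le_of_lt hky hyc)
        exact hmJ (by rw [hmx, ← this]; exact hkJ)
    · rw [mul_zero]
    · rw [zero_mul]
    · rw [zero_mul]

theorem fA_empty (S : Finset ℕ) : fA S ∅ = S := by
  ext v
  simp only [mem_fA, notMem_empty, false_or, and_iff_left_iff_imp]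
  exact fun _ => ev_of_forall_le fun v hv => absurd hv (notMem_empty v)

theorem fB_empty (S : Finset ℕ) : fB S ∅ = ∅ := by
  ext v
  simp only [mem_fB, notMem_empty, false_or, iff_false, not_and, not_not]
  exact fun _ => ev_of_forall_le fun v hv => absurd hv (notMem_empty v)

theorem cupJ_zero (f g : Co) (S : Finset ℕ) : cupJ 0 f g S = f S * g ∅ := by
  rw [cupJ, powersetCard_zero, sum_singleton, fA_empty, fB_empty]

theorem cupJ_zero_su (c : ℕ) (f g : Co) : cupJ 0 f (su c g) = 0 := by
  funext S
  rw [cupJ_zero, su_empty, mul_zero, Pi.zero_apply]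

/-- iterated suspension -/
def sus (cs : List ℕ) (f : Co) : Co := cs.foldr su f

@[simp] theorem sus_nil (f : Co) : sus [] f = f := rfl

@[simp] theorem sus_cons (c : ℕ) (cs : List ℕ) (f : Co) : sus (c :: cs) f = su c (sus cs f) := rfl

theorem sus_add (cs : List ℕ) (f g : Co) : sus cs (f + g) = sus cs f + sus cs g := by
  induction cs with
  | nil => rfl
  | cons c cs ih => rw [sus_cons, ih, su_add, sus_cons, sus_cons]

theorem sus_zero (cs : List ℕ) : sus cs 0 = 0 := by
  induction cs with
  | nil => rfl
  | cons c cs ih => rw [sus_cons, ih, su_zero]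

theorem dd_sus (cs : List ℕ) (f : Co) : dd (sus cs f) = sus cs (dd f) := by
  induction cs with
  | nil => rfl
  | cons c cs ih => rw [sus_cons, dd_su, ih, sus_cons]

/-- **N-fold suspension of the products** (even number of suspensions). -/
theorem cupJ_sus (cs : List ℕ) (j : ℕ) (f g : Co) :
    (Even cs.length → cupJ (j + cs.length) (sus cs f) (sus cs g) = sus cs (cupJ j f g)) ∧
    (¬ Even cs.length → cupJ (j + cs.length) (sus cs f) (sus cs g) = sus cs (cupJ j g f)) := by
  induction cs generalizing f g with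
  | nil => exact ⟨fun _ => rfl, fun h => absurd ⟨0, rfl⟩ h⟩
  | cons c cs ih =>
    simp only [List.length_cons, sus_cons]
    rw [← add_assoc, cupJ_su, Nat.even_add_one]
    constructor
    · intro h
      rw [(ih g f).2 h]
    · intro h
      rw [not_not] at h
      rw [(ih g f).1 h]

theorem cupJ_sus_of_lt (cs : List ℕ) (j : ℕ) (hj : j < cs.length) (f g : Co) :
    cupJ j (sus cs f) (sus cs g) = 0 := by
  induction cs generalizing f g j with
  | nil => exact absurd hj (Nat.not_lt_zero j)
  | cons c cs ih =>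
    cases j with
    | zero => exact cupJ_zero_su _ _ _
    | succ j =>
      rw [sus_cons, sus_cons, cupJ_su, ih j (Nat.lt_of_succ_lt_succ hj), su_zero]

/-! ### the cup product -/

theorem fA_singleton (S : Finset ℕ) (m : ℕ) (_hm : m ∈ S) : fA S {m} = S.filter (· ≤ m) := by
  ext v
  simp only [mem_fA, mem_filter, mem_singleton, ev, filter_singleton]
  refine and_congr_right fun _ => ?_
  by_cases h : m < v
  · rw [if_pos h, card_singleton]
    simp only [Nat.not_even_one, or_false]
    omega
  · rw [if_neg h, card_empty]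
    simp only [Even.zero, or_true, true_iff]
    omega

theorem fB_singleton (S : Finset ℕ) (m : ℕ) (_hm : m ∈ S) : fB S {m} = S.filter (m ≤ ·) := by
  ext v
  simp only [mem_fB, mem_filter, mem_singleton, ev, filter_singleton]
  refine and_congr_right fun _ => ?_
  by_cases h : m < v
  · rw [if_pos h, card_singleton]
    simp only [Nat.not_even_one, not_false_eq_true, or_true, true_iff]
    omega
  · rw [if_neg h, card_empty]
    simp only [Even.zero, not_true_eq_false, or_false]
    omega

/-- the cup product as a sum over the common vertex -/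
theorem cup_apply (f g : Co) (S : Finset ℕ) :
    cupJ 1 f g S = ∑ m ∈ S, f (S.filter (· ≤ m)) * g (S.filter (m ≤ ·)) := by
  rw [cupJ, powersetCard_one, sum_map]
  refine sum_congr rfl fun m hm => ?_
  change f (fA S {m}) * g (fB S {m}) = _
  rw [fA_singleton S m hm, fB_singleton S m hm]

theorem cup_assoc (f g h : Co) : cupJ 1 (cupJ 1 f g) h = cupJ 1 f (cupJ 1 g h) := by
  funext S
  rw [cup_apply, cup_apply]
  have h1 : ∀ m ∈ S, cupJ 1 f g (S.filter (· ≤ m)) * h (S.filter (m ≤ ·)) =
      ∑ l ∈ S.filter (· ≤ m), f (S.filter (· ≤ l)) * g (S.filter fun v => l ≤ v ∧ v ≤ m) *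
        h (S.filter (m ≤ ·)) := by
    intro m _
    rw [cup_apply, sum_mul]
    refine sum_congr rfl fun l hl => ?_
    have hl' := (mem_filter.1 hl).2
    congr 3
    · ext v; simp only [mem_filter]
      constructor
      · rintro ⟨⟨a, _⟩, b⟩; exact ⟨a, b⟩
      · rintro ⟨a, b⟩; exact ⟨⟨a, b.trans hl'⟩, b⟩
    · ext v; simp only [mem_filter]; tauto
  have h2 : ∀ l ∈ S, f (S.filter (· ≤ l)) * cupJ 1 g h (S.filter (l ≤ ·)) =
      ∑ m ∈ S.filter (l ≤ ·), f (S.filter (· ≤ l)) * g (S.filter fun v => l ≤ v ∧ v ≤ m) *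
        h (S.filter (m ≤ ·)) := by
    intro l _
    rw [cup_apply, mul_sum]
    refine sum_congr rfl fun m hm => ?_
    have hm' := (mem_filter.1 hm).2
    rw [mul_assoc]
    congr 3
    · ext v; simp only [mem_filter]; tauto
    · ext v; simp only [mem_filter]
      constructor
      · rintro ⟨⟨a, _⟩, b⟩; exact ⟨a, b⟩
      · rintro ⟨a, b⟩; exact ⟨⟨a, hm'.trans b⟩, b⟩
  rw [sum_congr rfl h1, sum_congr rfl h2, sum_comm']
  intro m l
  simp only [mem_filter]
  tauto

/-- the unit cochain -/
def one : Co := fun S => if S.card = 1 then 1 else 0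

theorem dd_one : dd one = 0 := by
  funext S
  have h : ∀ k ∈ S, one (S.erase k) = if S.card = 2 then 1 else 0 := by
    intro k hk
    have hpos : 0 < S.card := card_pos.2 ⟨k, hk⟩
    rw [one, card_erase_of_mem hk]
    have : (S.card - 1 = 1) ↔ S.card = 2 := by omega
    simp only [this]
  rw [dd, sum_congr rfl h, sum_const, Pi.zero_apply]
  split_ifs with h2
  · rw [h2]; rfl
  · rw [smul_zero]

theorem one_empty : one ∅ = 0 := rfl

theorem cup_one (f : Co) (hf : f ∅ = 0) : cupJ 1 f one = f := by
  funext S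
  rw [cup_apply]
  rcases S.eq_empty_or_nonempty with rfl | hS
  · rw [sum_empty, hf]
  · set m := S.max' hS with hm
    have hmS : m ∈ S := max'_mem _ _
    have hmax : ∀ v ∈ S, v ≤ m := fun v hv => le_max' _ _ hv
    rw [sum_eq_single_of_mem m hmS]
    · have e1 : S.filter (· ≤ m) = S := filter_true_of_mem hmax
      have e2 : S.filter (m ≤ ·) = {m} := by
        ext v; simp only [mem_filter, mem_singleton]
        constructor
        · rintro ⟨a, b⟩; exact le_antisymm (hmax v a) b
        · rintro rfl; exact ⟨hmS, le_rfl⟩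
      rw [e1, e2, one, card_singleton, if_pos rfl, mul_one]
    · intro l hl hlm
      have : one (S.filter (l ≤ ·)) = 0 := by
        rw [one, if_neg]
        intro hc
        obtain ⟨x, hx⟩ := card_eq_one.1 hc
        have a1 : l ∈ S.filter (l ≤ ·) := mem_filter.2 ⟨hl, le_rfl⟩
        have a2 : m ∈ S.filter (l ≤ ·) := mem_filter.2 ⟨hmS, hmax l hl⟩
        rw [hx, mem_singleton] at a1 a2
        exact hlm (a1.trans a2.symm)
      rw [this, mul_zero]

/-- Leibniz rule -/
theorem dd_cup (f g : Co) (hf : f ∅ = 0) (hg : g ∅ = 0) :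
    dd (cupJ 1 f g) = cupJ 1 (dd f) g + cupJ 1 f (dd g) := by
  rw [dd_cupJ 0]
  have h1 : cupJ 0 f g = 0 := by
    funext S; rw [cupJ_zero, hg, mul_zero, Pi.zero_apply]
  have h2 : cupJ 0 g f = 0 := by
    funext S; rw [cupJ_zero, hf, mul_zero, Pi.zero_apply]
  rw [h1, h2, add_zero, add_zero, zero_add]

/-- suspension and multiplication at the back -/
theorem su_cup (c : ℕ) (f g : Co) (hf : f ∅ = 0) :
    cupJ 1 (su c f) g = su c (cupJ 1 f g) := by
  funext S
  rw [cup_apply]
  have hlow : ∀ m ∈ S.filter (· < c), su c f (S.filter (· ≤ m)) * g (S.filter (m ≤ ·)) = 0 := by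
    intro m hm
    have hmc := (mem_filter.1 hm).2
    have : (S.filter (· ≤ m)).filter (c ≤ ·) = ∅ := by
      refine filter_false_of_mem fun v hv => ?_
      have := (mem_filter.1 hv).2
      omega
    rw [su, this, hf, ite_self, zero_mul]
  rw [← sum_filter_add_sum_filter_not S (· < c), sum_eq_zero hlow, zero_add, su]
  simp only [not_lt]
  have hhigh : ∀ m ∈ S.filter (c ≤ ·), su c f (S.filter (· ≤ m)) * g (S.filter (m ≤ ·)) =
      if (S.filter (· < c)).card = 1 then
        f ((S.filter (c ≤ ·)).filter (· ≤ m)) * g ((S.filter (c ≤ ·)).filter (m ≤ ·)) else 0 := by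
    intro m hm
    have hmc := (mem_filter.1 hm).2
    have e1 : (S.filter (· ≤ m)).filter (· < c) = S.filter (· < c) := by
      ext v; simp only [mem_filter]
      constructor
      · rintro ⟨⟨a, _⟩, b⟩; exact ⟨a, b⟩
      · rintro ⟨a, b⟩; exact ⟨⟨a, by omega⟩, b⟩
    have e2 : (S.filter (· ≤ m)).filter (c ≤ ·) = (S.filter (c ≤ ·)).filter (· ≤ m) := by
      ext v; simp only [mem_filter]; tauto
    have e3 : (S.filter (c ≤ ·)).filter (m ≤ ·) = S.filter (m ≤ ·) := by
      ext v; simp only [mem_filter]
      constructor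
      · rintro ⟨⟨a, _⟩, b⟩; exact ⟨a, b⟩
      · rintro ⟨a, b⟩; exact ⟨⟨a, by omega⟩, b⟩
    rw [su, e1, e2, e3]
    split_ifs
    · rfl
    · rw [zero_mul]
  rw [sum_congr rfl hhigh]
  split_ifs
  · rw [cup_apply]
  · rw [sum_const_zero]

theorem sus_cup (cs : List ℕ) (f g : Co) (hf : f ∅ = 0) :
    cupJ 1 (sus cs f) g = sus cs (cupJ 1 f g) := by
  induction cs with
  | nil => rfl
  | cons c cs ih =>
    have : sus cs f ∅ = 0 := by
      clear ih
      cases cs with
      | nil => exact hf
      | cons d ds => rw [sus_cons, su_empty]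
    rw [sus_cons, su_cup c _ g this, ih, sus_cons]

/-! ### degrees -/

/-- homogeneous of degree `q` -/
def Deg (q : ℕ) (f : Co) : Prop := ∀ S : Finset ℕ, S.card ≠ q + 1 → f S = 0

theorem Deg.empty {q : ℕ} {f : Co} (h : Deg q f) : f ∅ = 0 :=
  h ∅ (by rw [card_empty]; omega)

theorem Deg.add {q : ℕ} {f g : Co} (hf : Deg q f) (hg : Deg q g) : Deg q (f + g) :=
  fun S hS => by rw [Pi.add_apply, hf S hS, hg S hS, add_zero]

theorem Deg.dd {q : ℕ} {f : Co} (hf : Deg q f) : Deg (q + 1) (dd f) := fun S hS =>
  sum_eq_zero fun k hk => hf _ (by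
    have hpos : 0 < S.card := card_pos.2 ⟨k, hk⟩
    rw [card_erase_of_mem hk]; omega)

theorem Deg.su {q : ℕ} {f : Co} (hf : Deg q f) (c : ℕ) : Deg (q + 1) (su c f) := fun S hS => by
  rw [H83.su]
  split_ifs with h
  · refine hf _ fun hc => hS ?_
    have := card_filter_add_card_filter_not (s := S) (· < c)
    simp only [not_lt] at this
    omega
  · rfl

theorem Deg.sus {q : ℕ} {f : Co} (hf : Deg q f) (cs : List ℕ) : Deg (q + cs.length) (sus cs f) := by
  induction cs with
  | nil => exact hf
  | cons c cs ih =>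
    rw [sus_cons, List.length_cons, ← add_assoc]
    exact ih.su c

theorem card_fA_add_card_fB {S J : Finset ℕ} (hJ : J ⊆ S) :
    (fA S J).card + (fB S J).card = S.card + J.card := by
  have h1 : fA S J ∪ fB S J = S := by
    ext v; simp only [mem_union, mem_fA, mem_fB]; tauto
  have h2 : fA S J ∩ fB S J = J := by
    ext v; simp only [mem_inter, mem_fA, mem_fB]
    constructor
    · rintro ⟨⟨_, h3⟩, _, h4⟩; tauto
    · intro h; exact ⟨⟨hJ h, Or.inl h⟩, hJ h, Or.inl h⟩
  rw [← card_union_add_card_inter, h1, h2]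

theorem subset_fA {S J : Finset ℕ} (hJ : J ⊆ S) : J ⊆ fA S J := fun _ h =>
  mem_fA.2 ⟨hJ h, Or.inl h⟩

theorem subset_fB {S J : Finset ℕ} (hJ : J ⊆ S) : J ⊆ fB S J := fun _ h =>
  mem_fB.2 ⟨hJ h, Or.inl h⟩

theorem Deg.cupJ {p q r j : ℕ} {f g : Co} (hf : Deg p f) (hg : Deg q g) (h : r + j = p + q + 1) :
    Deg r (cupJ j f g) := fun S hS => by
  refine sum_eq_zero fun J hJ => ?_
  obtain ⟨h1, h2⟩ := mem_powersetCard.1 hJ
  have h3 := card_fA_add_card_fB h1
  by_cases h4 : (fA S J).card = p + 1
  · rw [hg (fB S J) (by omega), mul_zero]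
  · rw [hf _ h4, zero_mul]

/-- `f ∪_i g = 0` for `i > deg f` -/
theorem cupJ_eq_zero {q j : ℕ} {f g : Co} (hf : Deg q f) (h : q + 1 < j) : cupJ j f g = 0 := by
  funext S
  refine sum_eq_zero fun J hJ => ?_
  obtain ⟨h1, h2⟩ := mem_powersetCard.1 hJ
  rw [hf _ (by have := card_le_card (subset_fA h1); omega), zero_mul]

/-- `f ∪_q f = f` for `f` of degree `q` -/
theorem cupJ_top {q : ℕ} {f : Co} (hf : Deg q f) : cupJ (q + 1) f f = f := by
  funext S
  by_cases hS : S.card = q + 1
  · rw [cupJ]
    have : S.powersetCard (q + 1) = {S} := by rw [← hS, powersetCard_self]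
    rw [this, sum_singleton]
    have e1 : fA S S = S := subset_antisymm (filter_subset _ _) (subset_fA (Subset.refl S))
    have e2 : fB S S = S := subset_antisymm (filter_subset _ _) (subset_fB (Subset.refl S))
    rw [e1, e2]
    generalize f S = x
    revert x; decide
  · rw [hf S hS]
    exact Deg.cupJ hf hf (by omega) S hS

end Vale.Agent.P263.H83
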